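import Vale.Agent.P243C.Reduce
import Vale.Agent.P243C.Data

/-!
Assembly: an explicit finite covering of a tetrahedron by cylinders with directionwise relative area
`133837 / 270000 < 1 / 2`.
-/

open MeasureTheory Vale.Agent.P243
open scoped ENNReal

namespace Vale.Agent.P243C

theorem inner_vec (a b c : ℝ) (x : E) :
    inner ℝ (!₂[a, b, c] : E) x = a * x 0 + b * x 1 + c * x 2 := by
  simp [PiLp.inner_apply, Fin.sum_univ_three]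
  ring

theorem tri_mem {a b c p : ℝ × ℝ} {α β γ D : ℝ} (hD : 0 < D) (hα : 0 ≤ α) (hβ : 0 ≤ β) (hγ : 0 ≤ γ)
    (hs : α + β + γ = D) (hx : α * a.1 + β * b.1 + γ * c.1 = D * p.1)
    (hy : α * a.2 + β * b.2 + γ * c.2 = D * p.2) : p ∈ tri a b c := by
  have hD' : D ≠ 0 := hD.ne'
  refine ⟨α / D, β / D, γ / D, by positivity, by positivity, by positivity, ?_, ?_⟩
  · field_simp
    linarith
  · ext
    · simp only
      field_simp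
      linarith
    · simp only
      field_simp
      linarith

/-- Vertices of the simplex. -/
noncomputable def V1 : E := !₂[1, 0, 0]
noncomputable def V2 : E := !₂[0, 1, 0]
noncomputable def V3 : E := !₂[0, 0, 1]
noncomputable def V4' : E := !₂[0, 0, 0]

theorem V1_mem : V1 ∈ K := by simp [K, V1]
theorem V2_mem : V2 ∈ K := by simp [K, V2]
theorem V3_mem : V3 ∈ K := by simp [K, V3]
theorem V4_mem : V4' ∈ K := by simp [K, V4']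

theorem ratio_le {T S : Set (ℝ × ℝ)} {d : ℝ} (hT : volume T = ENNReal.ofReal (d / 2))
    (hS : (1 / 2 : ℝ≥0∞) ≤ volume S) : volume T / volume S ≤ ENNReal.ofReal d := by
  calc volume T / volume S ≤ volume T / (1 / 2 : ℝ≥0∞) := ENNReal.div_le_div_left hS _
    _ = ENNReal.ofReal d := by
      rw [hT, ENNReal.div_eq_inv_mul]
      have h2 : ((1 / 2 : ℝ≥0∞))⁻¹ = ENNReal.ofReal 2 := by
        simp
      rw [h2, ← ENNReal.ofReal_mul (by norm_num)]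
      congr 1
      ring

/-- Forms of direction 0. -/
noncomputable def F0 : E := !₂[(-1 : ℝ), (-1 : ℝ), (-1 : ℝ)]
noncomputable def G0 : E := !₂[(1 : ℝ), (0 : ℝ), (0 : ℝ)]
noncomputable def C0 : ℝ × ℝ := ((1 : ℝ), (0 : ℝ))

theorem aff0 (x : E) : aff F0 G0 C0 x =
    ((-1 : ℝ) * x 0 + (-1 : ℝ) * x 1 + (-1 : ℝ) * x 2 + (1 : ℝ),
      (1 : ℝ) * x 0 + (0 : ℝ) * x 1 + (0 : ℝ) * x 2 + (0 : ℝ)) := by
  simp only [aff, F0, G0, C0, inner_vec]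

theorem li0 : LinearIndependent ℝ ![F0, G0] := by
  rw [LinearIndependent.pair_iff]
  intro s t h
  have h0 := congrArg (fun v : E => v 0) h
  have h1 := congrArg (fun v : E => v 1) h
  have h2 := congrArg (fun v : E => v 2) h
  simp [F0, G0] at h0 h1 h2
  constructor <;> linarith

theorem half0 : (1 / 2 : ℝ≥0∞) ≤ volume (aff F0 G0 C0 '' K) := by
  refine half_le_volume_image F0 G0 C0 (0 : ℝ) (0 : ℝ) (by norm_num) (by norm_num) (by norm_num)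
    (by norm_num) V2 V4' V3 V1 V2_mem V4_mem V3_mem V1_mem ?_ ?_ ?_ ?_ <;>
  · rw [aff0]
    simp [V1, V2, V3, V4']
    try norm_num

/-- Forms of direction 1. -/
noncomputable def F1 : E := !₂[(0 : ℝ), (0 : ℝ), (1 : ℝ)]
noncomputable def G1 : E := !₂[(0 : ℝ), (1 : ℝ), (0 : ℝ)]
noncomputable def C1 : ℝ × ℝ := ((0 : ℝ), (0 : ℝ))

theorem aff1 (x : E) : aff F1 G1 C1 x =
    ((0 : ℝ) * x 0 + (0 : ℝ) * x 1 + (1 : ℝ) * x 2 + (0 : ℝ),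
      (0 : ℝ) * x 0 + (1 : ℝ) * x 1 + (0 : ℝ) * x 2 + (0 : ℝ)) := by
  simp only [aff, F1, G1, C1, inner_vec]

theorem li1 : LinearIndependent ℝ ![F1, G1] := by
  rw [LinearIndependent.pair_iff]
  intro s t h
  have h0 := congrArg (fun v : E => v 0) h
  have h1 := congrArg (fun v : E => v 1) h
  have h2 := congrArg (fun v : E => v 2) h
  simp [F1, G1] at h0 h1 h2
  constructor <;> linarith

theorem half1 : (1 / 2 : ℝ≥0∞) ≤ volume (aff F1 G1 C1 '' K) := by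
  refine half_le_volume_image F1 G1 C1 (0 : ℝ) (0 : ℝ) (by norm_num) (by norm_num) (by norm_num)
    (by norm_num) V1 V3 V4' V2 V1_mem V3_mem V4_mem V2_mem ?_ ?_ ?_ ?_ <;>
  · rw [aff1]
    simp [V1, V2, V3, V4']
    try norm_num

/-- Forms of direction 2. -/
noncomputable def F2 : E := !₂[(-1 / 2 : ℝ), (1 / 2 : ℝ), (0 : ℝ)]
noncomputable def G2 : E := !₂[(-1 / 2 : ℝ), (-1 / 2 : ℝ), (-1 : ℝ)]
noncomputable def C2 : ℝ × ℝ := ((0 : ℝ), (1 / 2 : ℝ))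

theorem aff2 (x : E) : aff F2 G2 C2 x =
    ((-1 / 2 : ℝ) * x 0 + (1 / 2 : ℝ) * x 1 + (0 : ℝ) * x 2 + (0 : ℝ),
      (-1 / 2 : ℝ) * x 0 + (-1 / 2 : ℝ) * x 1 + (-1 : ℝ) * x 2 + (1 / 2 : ℝ)) := by
  simp only [aff, F2, G2, C2, inner_vec]

theorem li2 : LinearIndependent ℝ ![F2, G2] := by
  rw [LinearIndependent.pair_iff]
  intro s t h
  have h0 := congrArg (fun v : E => v 0) h
  have h1 := congrArg (fun v : E => v 1) h
  have h2 := congrArg (fun v : E => v 2) h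
  simp [F2, G2] at h0 h1 h2
  constructor <;> linarith

theorem half2 : (1 / 2 : ℝ≥0∞) ≤ volume (aff F2 G2 C2 '' K) := by
  refine half_le_volume_image F2 G2 C2 (1 / 2 : ℝ) (1 / 2 : ℝ) (by norm_num) (by norm_num) (by norm_num)
    (by norm_num) V1 V2 V3 V4' V1_mem V2_mem V3_mem V4_mem ?_ ?_ ?_ ?_ <;>
  · rw [aff2]
    simp [V1, V2, V3, V4']
    try norm_num

/-- Forms of direction 3. -/
noncomputable def F3 : E := !₂[(-1 / 2 : ℝ), (0 : ℝ), (1 / 2 : ℝ)]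
noncomputable def G3 : E := !₂[(-1 / 2 : ℝ), (-1 : ℝ), (-1 / 2 : ℝ)]
noncomputable def C3 : ℝ × ℝ := ((0 : ℝ), (1 / 2 : ℝ))

theorem aff3 (x : E) : aff F3 G3 C3 x =
    ((-1 / 2 : ℝ) * x 0 + (0 : ℝ) * x 1 + (1 / 2 : ℝ) * x 2 + (0 : ℝ),
      (-1 / 2 : ℝ) * x 0 + (-1 : ℝ) * x 1 + (-1 / 2 : ℝ) * x 2 + (1 / 2 : ℝ)) := by
  simp only [aff, F3, G3, C3, inner_vec]

theorem li3 : LinearIndependent ℝ ![F3, G3] := by
  rw [LinearIndependent.pair_iff]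
  intro s t h
  have h0 := congrArg (fun v : E => v 0) h
  have h1 := congrArg (fun v : E => v 1) h
  have h2 := congrArg (fun v : E => v 2) h
  simp [F3, G3] at h0 h1 h2
  constructor <;> linarith

theorem half3 : (1 / 2 : ℝ≥0∞) ≤ volume (aff F3 G3 C3 '' K) := by
  refine half_le_volume_image F3 G3 C3 (1 / 2 : ℝ) (1 / 2 : ℝ) (by norm_num) (by norm_num) (by norm_num)
    (by norm_num) V1 V3 V2 V4' V1_mem V3_mem V2_mem V4_mem ?_ ?_ ?_ ?_ <;>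
  · rw [aff3]
    simp [V1, V2, V3, V4']
    try norm_num

/-- Forms of direction 4. -/
noncomputable def F4 : E := !₂[(-1 / 2 : ℝ), (1 / 2 : ℝ), (0 : ℝ)]
noncomputable def G4 : E := !₂[(-1 : ℝ), (-1 : ℝ), (-1 : ℝ)]
noncomputable def C4 : ℝ × ℝ := ((0 : ℝ), (1 : ℝ))

theorem aff4 (x : E) : aff F4 G4 C4 x =
    ((-1 / 2 : ℝ) * x 0 + (1 / 2 : ℝ) * x 1 + (0 : ℝ) * x 2 + (0 : ℝ),
      (-1 : ℝ) * x 0 + (-1 : ℝ) * x 1 + (-1 : ℝ) * x 2 + (1 : ℝ)) := by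
  simp only [aff, F4, G4, C4, inner_vec]

theorem li4 : LinearIndependent ℝ ![F4, G4] := by
  rw [LinearIndependent.pair_iff]
  intro s t h
  have h0 := congrArg (fun v : E => v 0) h
  have h1 := congrArg (fun v : E => v 1) h
  have h2 := congrArg (fun v : E => v 2) h
  simp [F4, G4] at h0 h1 h2
  constructor <;> linarith

theorem half4 : (1 / 2 : ℝ≥0∞) ≤ volume (aff F4 G4 C4 '' K) := by
  refine half_le_volume_image F4 G4 C4 (1 / 2 : ℝ) (0 : ℝ) (by norm_num) (by norm_num) (by norm_num)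
    (by norm_num) V1 V2 V3 V4' V1_mem V2_mem V3_mem V4_mem ?_ ?_ ?_ ?_ <;>
  · rw [aff4]
    simp [V1, V2, V3, V4']
    try norm_num

/-- Forms of direction 5. -/
noncomputable def F5 : E := !₂[(1 : ℝ), (0 : ℝ), (0 : ℝ)]
noncomputable def G5 : E := !₂[(-1 / 2 : ℝ), (-1 / 2 : ℝ), (-1 : ℝ)]
noncomputable def C5 : ℝ × ℝ := ((0 : ℝ), (1 / 2 : ℝ))

theorem aff5 (x : E) : aff F5 G5 C5 x =
    ((1 : ℝ) * x 0 + (0 : ℝ) * x 1 + (0 : ℝ) * x 2 + (0 : ℝ),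
      (-1 / 2 : ℝ) * x 0 + (-1 / 2 : ℝ) * x 1 + (-1 : ℝ) * x 2 + (1 / 2 : ℝ)) := by
  simp only [aff, F5, G5, C5, inner_vec]

theorem li5 : LinearIndependent ℝ ![F5, G5] := by
  rw [LinearIndependent.pair_iff]
  intro s t h
  have h0 := congrArg (fun v : E => v 0) h
  have h1 := congrArg (fun v : E => v 1) h
  have h2 := congrArg (fun v : E => v 2) h
  simp [F5, G5] at h0 h1 h2
  constructor <;> linarith

theorem half5 : (1 / 2 : ℝ≥0∞) ≤ volume (aff F5 G5 C5 '' K) := by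
  refine half_le_volume_image F5 G5 C5 (0 : ℝ) (1 / 2 : ℝ) (by norm_num) (by norm_num) (by norm_num)
    (by norm_num) V2 V1 V3 V4' V2_mem V1_mem V3_mem V4_mem ?_ ?_ ?_ ?_ <;>
  · rw [aff5]
    simp [V1, V2, V3, V4']
    try norm_num

/-- Forms of direction 6. -/
noncomputable def F6 : E := !₂[(-1 / 2 : ℝ), (0 : ℝ), (1 / 2 : ℝ)]
noncomputable def G6 : E := !₂[(0 : ℝ), (1 : ℝ), (0 : ℝ)]
noncomputable def C6 : ℝ × ℝ := ((0 : ℝ), (0 : ℝ))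

theorem aff6 (x : E) : aff F6 G6 C6 x =
    ((-1 / 2 : ℝ) * x 0 + (0 : ℝ) * x 1 + (1 / 2 : ℝ) * x 2 + (0 : ℝ),
      (0 : ℝ) * x 0 + (1 : ℝ) * x 1 + (0 : ℝ) * x 2 + (0 : ℝ)) := by
  simp only [aff, F6, G6, C6, inner_vec]

theorem li6 : LinearIndependent ℝ ![F6, G6] := by
  rw [LinearIndependent.pair_iff]
  intro s t h
  have h0 := congrArg (fun v : E => v 0) h
  have h1 := congrArg (fun v : E => v 1) h
  have h2 := congrArg (fun v : E => v 2) h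
  simp [F6, G6] at h0 h1 h2
  constructor <;> linarith

theorem half6 : (1 / 2 : ℝ≥0∞) ≤ volume (aff F6 G6 C6 '' K) := by
  refine half_le_volume_image F6 G6 C6 (1 / 2 : ℝ) (0 : ℝ) (by norm_num) (by norm_num) (by norm_num)
    (by norm_num) V1 V3 V4' V2 V1_mem V3_mem V4_mem V2_mem ?_ ?_ ?_ ?_ <;>
  · rw [aff6]
    simp [V1, V2, V3, V4']
    try norm_num

/-- Forms of direction 7. -/
noncomputable def F7 : E := !₂[(0 : ℝ), (0 : ℝ), (1 : ℝ)]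
noncomputable def G7 : E := !₂[(-1 / 2 : ℝ), (-1 : ℝ), (-1 / 2 : ℝ)]
noncomputable def C7 : ℝ × ℝ := ((0 : ℝ), (1 / 2 : ℝ))

theorem aff7 (x : E) : aff F7 G7 C7 x =
    ((0 : ℝ) * x 0 + (0 : ℝ) * x 1 + (1 : ℝ) * x 2 + (0 : ℝ),
      (-1 / 2 : ℝ) * x 0 + (-1 : ℝ) * x 1 + (-1 / 2 : ℝ) * x 2 + (1 / 2 : ℝ)) := by
  simp only [aff, F7, G7, C7, inner_vec]

theorem li7 : LinearIndependent ℝ ![F7, G7] := by
  rw [LinearIndependent.pair_iff]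
  intro s t h
  have h0 := congrArg (fun v : E => v 0) h
  have h1 := congrArg (fun v : E => v 1) h
  have h2 := congrArg (fun v : E => v 2) h
  simp [F7, G7] at h0 h1 h2
  constructor <;> linarith

theorem half7 : (1 / 2 : ℝ≥0∞) ≤ volume (aff F7 G7 C7 '' K) := by
  refine half_le_volume_image F7 G7 C7 (0 : ℝ) (1 / 2 : ℝ) (by norm_num) (by norm_num) (by norm_num)
    (by norm_num) V1 V3 V2 V4' V1_mem V3_mem V2_mem V4_mem ?_ ?_ ?_ ?_ <;>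
  · rw [aff7]
    simp [V1, V2, V3, V4']
    try norm_num

theorem mem0 (x : E)
    (h : ∀ f ∈ forms 0, 0 ≤ f.ev (x 0) (x 1) (x 2) (1 - x 0 - x 1 - x 2)) :
    aff F0 G0 C0 x ∈ tri ((0 : ℝ), (0 : ℝ)) ((1 / 3 : ℝ), (0 : ℝ)) ((0 : ℝ), (1 / 3 : ℝ)) := by
  have h' : ∀ f ∈ [(⟨-2, 1, 1, -2⟩ : V4), ⟨0, 0, 0, 3⟩, ⟨3, 0, 0, 0⟩],
      0 ≤ f.ev (x 0) (x 1) (x 2) (1 - x 0 - x 1 - x 2) := h
  have h1 := h' _ (List.Mem.head _)
  have h2 := h' _ (List.Mem.tail _ (List.Mem.head _))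
  have h3 := h' _ (List.Mem.tail _ (List.Mem.tail _ (List.Mem.head _)))
  rw [aff0]
  refine tri_mem (D := 1) (by norm_num) h1 h2 h3 ?_ ?_ ?_ <;>
  · simp only [V4.ev]
    push_cast
    ring

theorem volT0 : volume (tri ((0 : ℝ), (0 : ℝ)) ((1 / 3 : ℝ), (0 : ℝ)) ((0 : ℝ), (1 / 3 : ℝ))) = ENNReal.ofReal ((1 / 9 : ℝ) / 2) := by
  rw [volume_tri]
  congr 2
  rw [det2]
  norm_num [abs_of_pos]

theorem mem1 (x : E)
    (h : ∀ f ∈ forms 1, 0 ≤ f.ev (x 0) (x 1) (x 2) (1 - x 0 - x 1 - x 2)) :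
    aff F1 G1 C1 x ∈ tri ((0 : ℝ), (0 : ℝ)) ((1 / 3 : ℝ), (0 : ℝ)) ((0 : ℝ), (1 / 3 : ℝ)) := by
  have h' : ∀ f ∈ [(⟨1, -2, -2, 1⟩ : V4), ⟨0, 0, 3, 0⟩, ⟨0, 3, 0, 0⟩],
      0 ≤ f.ev (x 0) (x 1) (x 2) (1 - x 0 - x 1 - x 2) := h
  have h1 := h' _ (List.Mem.head _)
  have h2 := h' _ (List.Mem.tail _ (List.Mem.head _))
  have h3 := h' _ (List.Mem.tail _ (List.Mem.tail _ (List.Mem.head _)))
  rw [aff1]
  refine tri_mem (D := 1) (by norm_num) h1 h2 h3 ?_ ?_ ?_ <;>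
  · simp only [V4.ev]
    push_cast
    ring

theorem volT1 : volume (tri ((0 : ℝ), (0 : ℝ)) ((1 / 3 : ℝ), (0 : ℝ)) ((0 : ℝ), (1 / 3 : ℝ))) = ENNReal.ofReal ((1 / 9 : ℝ) / 2) := by
  rw [volume_tri]
  congr 2
  rw [det2]
  norm_num [abs_of_pos]

theorem mem2 (x : E)
    (h : ∀ f ∈ forms 2, 0 ≤ f.ev (x 0) (x 1) (x 2) (1 - x 0 - x 1 - x 2)) :
    aff F2 G2 C2 x ∈ tri ((-1 / 12 : ℝ), (-1 / 4 : ℝ)) ((-11 / 300 : ℝ), (1 / 12 : ℝ)) ((-1 / 12 : ℝ), (11 / 300 : ℝ)) := by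
  have h' : ∀ f ∈ [(⟨-798, 1302, 1302, -798⟩ : V4), ⟨-5375, 7525, 1075, 1075⟩, ⟨6775, -8225, -1775, 325⟩],
      0 ≤ f.ev (x 0) (x 1) (x 2) (1 - x 0 - x 1 - x 2) := h
  have h1 := h' _ (List.Mem.head _)
  have h2 := h' _ (List.Mem.tail _ (List.Mem.head _))
  have h3 := h' _ (List.Mem.tail _ (List.Mem.tail _ (List.Mem.head _)))
  rw [aff2]
  refine tri_mem (D := 602) (by norm_num) h1 h2 h3 ?_ ?_ ?_ <;>
  · simp only [V4.ev]
    push_cast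
    ring

theorem volT2 : volume (tri ((-1 / 12 : ℝ), (-1 / 4 : ℝ)) ((-11 / 300 : ℝ), (1 / 12 : ℝ)) ((-1 / 12 : ℝ), (11 / 300 : ℝ))) = ENNReal.ofReal ((301 / 22500 : ℝ) / 2) := by
  rw [volume_tri]
  congr 2
  rw [det2]
  norm_num [abs_of_pos]

theorem mem3 (x : E)
    (h : ∀ f ∈ forms 3, 0 ≤ f.ev (x 0) (x 1) (x 2) (1 - x 0 - x 1 - x 2)) :
    aff F2 G2 C2 x ∈ tri ((-1 / 12 : ℝ), (-1 / 4 : ℝ)) ((1 / 4 : ℝ), (1 / 12 : ℝ)) ((-11 / 300 : ℝ), (1 / 12 : ℝ)) := by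
  have h' : ∀ f ∈ [(⟨43, 43, 301, -215⟩ : V4), ⟨-271, 329, 71, -13⟩, ⟨400, -200, -200, 400⟩],
      0 ≤ f.ev (x 0) (x 1) (x 2) (1 - x 0 - x 1 - x 2) := h
  have h1 := h' _ (List.Mem.head _)
  have h2 := h' _ (List.Mem.tail _ (List.Mem.head _))
  have h3 := h' _ (List.Mem.tail _ (List.Mem.tail _ (List.Mem.head _)))
  rw [aff2]
  refine tri_mem (D := 172) (by norm_num) h1 h2 h3 ?_ ?_ ?_ <;>
  · simp only [V4.ev]
    push_cast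
    ring

theorem volT3 : volume (tri ((-1 / 12 : ℝ), (-1 / 4 : ℝ)) ((1 / 4 : ℝ), (1 / 12 : ℝ)) ((-11 / 300 : ℝ), (1 / 12 : ℝ))) = ENNReal.ofReal ((43 / 450 : ℝ) / 2) := by
  rw [volume_tri]
  congr 2
  rw [det2]
  norm_num [abs_of_pos]

theorem mem4 (x : E)
    (h : ∀ f ∈ forms 4, 0 ≤ f.ev (x 0) (x 1) (x 2) (1 - x 0 - x 1 - x 2)) :
    aff F3 G3 C3 x ∈ tri ((7 / 160 : ℝ), (-1 / 160 : ℝ)) ((7 / 160 : ℝ), (17 / 160 : ℝ)) ((-17 / 160 : ℝ), (-7 / 160 : ℝ)) := by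
  have h' : ∀ f ∈ [(⟨-840, 1080, 1080, -840⟩ : V4), ⟨273, -927, -207, 993⟩, ⟨783, 63, -657, 63⟩],
      0 ≤ f.ev (x 0) (x 1) (x 2) (1 - x 0 - x 1 - x 2) := h
  have h1 := h' _ (List.Mem.head _)
  have h2 := h' _ (List.Mem.tail _ (List.Mem.head _))
  have h3 := h' _ (List.Mem.tail _ (List.Mem.tail _ (List.Mem.head _)))
  rw [aff3]
  refine tri_mem (D := 216) (by norm_num) h1 h2 h3 ?_ ?_ ?_ <;>
  · simp only [V4.ev]
    push_cast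
    ring

theorem volT4 : volume (tri ((7 / 160 : ℝ), (-1 / 160 : ℝ)) ((7 / 160 : ℝ), (17 / 160 : ℝ)) ((-17 / 160 : ℝ), (-7 / 160 : ℝ))) = ENNReal.ofReal ((27 / 1600 : ℝ) / 2) := by
  rw [volume_tri]
  congr 2
  rw [det2]
  norm_num [abs_of_pos]

theorem mem5 (x : E)
    (h : ∀ f ∈ forms 5, 0 ≤ f.ev (x 0) (x 1) (x 2) (1 - x 0 - x 1 - x 2)) :
    aff F3 G3 C3 x ∈ tri ((7 / 160 : ℝ), (-1 / 160 : ℝ)) ((-17 / 160 : ℝ), (-7 / 160 : ℝ)) ((1 / 160 : ℝ), (-7 / 160 : ℝ)) := by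
  have h' : ∀ f ∈ [(⟨63, -657, 63, 783⟩ : V4), ⟨264, -216, -216, 264⟩, ⟨-273, 927, 207, -993⟩],
      0 ≤ f.ev (x 0) (x 1) (x 2) (1 - x 0 - x 1 - x 2) := h
  have h1 := h' _ (List.Mem.head _)
  have h2 := h' _ (List.Mem.tail _ (List.Mem.head _))
  have h3 := h' _ (List.Mem.tail _ (List.Mem.tail _ (List.Mem.head _)))
  rw [aff3]
  refine tri_mem (D := 54) (by norm_num) h1 h2 h3 ?_ ?_ ?_ <;>
  · simp only [V4.ev]
    push_cast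
    ring

theorem volT5 : volume (tri ((7 / 160 : ℝ), (-1 / 160 : ℝ)) ((-17 / 160 : ℝ), (-7 / 160 : ℝ)) ((1 / 160 : ℝ), (-7 / 160 : ℝ))) = ENNReal.ofReal ((27 / 6400 : ℝ) / 2) := by
  rw [volume_tri]
  congr 2
  rw [det2]
  norm_num [abs_of_pos]

theorem mem6 (x : E)
    (h : ∀ f ∈ forms 6, 0 ≤ f.ev (x 0) (x 1) (x 2) (1 - x 0 - x 1 - x 2)) :
    aff F3 G3 C3 x ∈ tri ((7 / 160 : ℝ), (17 / 160 : ℝ)) ((23 / 240 : ℝ), (21 / 80 : ℝ)) ((-21 / 80 : ℝ), (-23 / 240 : ℝ)) := by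
  have h' : ∀ f ∈ [(⟨-1376, 2752, 2752, -1376⟩ : V4), ⟨891, -2037, -1437, 1491⟩, ⟨915, -285, -885, 315⟩],
      0 ≤ f.ev (x 0) (x 1) (x 2) (1 - x 0 - x 1 - x 2) := h
  have h1 := h' _ (List.Mem.head _)
  have h2 := h' _ (List.Mem.tail _ (List.Mem.head _))
  have h3 := h' _ (List.Mem.tail _ (List.Mem.tail _ (List.Mem.head _)))
  rw [aff3]
  refine tri_mem (D := 430) (by norm_num) h1 h2 h3 ?_ ?_ ?_ <;>
  · simp only [V4.ev]
    push_cast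
    ring

theorem volT6 : volume (tri ((7 / 160 : ℝ), (17 / 160 : ℝ)) ((23 / 240 : ℝ), (21 / 80 : ℝ)) ((-21 / 80 : ℝ), (-23 / 240 : ℝ))) = ENNReal.ofReal ((43 / 1152 : ℝ) / 2) := by
  rw [volume_tri]
  congr 2
  rw [det2]
  norm_num [abs_of_pos]

theorem mem7 (x : E)
    (h : ∀ f ∈ forms 7, 0 ≤ f.ev (x 0) (x 1) (x 2) (1 - x 0 - x 1 - x 2)) :
    aff F3 G3 C3 x ∈ tri ((7 / 160 : ℝ), (17 / 160 : ℝ)) ((-21 / 80 : ℝ), (-23 / 240 : ℝ)) ((-17 / 160 : ℝ), (-7 / 160 : ℝ)) := by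
  have h' : ∀ f ∈ [(⟨105, -295, -95, 305⟩ : V4), ⟨252, -324, -324, 252⟩, ⟨-297, 679, 479, -497⟩],
      0 ≤ f.ev (x 0) (x 1) (x 2) (1 - x 0 - x 1 - x 2) := h
  have h1 := h' _ (List.Mem.head _)
  have h2 := h' _ (List.Mem.tail _ (List.Mem.head _))
  have h3 := h' _ (List.Mem.tail _ (List.Mem.tail _ (List.Mem.head _)))
  rw [aff3]
  refine tri_mem (D := 60) (by norm_num) h1 h2 h3 ?_ ?_ ?_ <;>
  · simp only [V4.ev]
    push_cast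
    ring

theorem volT7 : volume (tri ((7 / 160 : ℝ), (17 / 160 : ℝ)) ((-21 / 80 : ℝ), (-23 / 240 : ℝ)) ((-17 / 160 : ℝ), (-7 / 160 : ℝ))) = ENNReal.ofReal ((1 / 64 : ℝ) / 2) := by
  rw [volume_tri]
  congr 2
  rw [det2]
  norm_num [abs_of_pos]

theorem mem8 (x : E)
    (h : ∀ f ∈ forms 8, 0 ≤ f.ev (x 0) (x 1) (x 2) (1 - x 0 - x 1 - x 2)) :
    aff F4 G4 C4 x ∈ tri ((-1 / 12 : ℝ), (0 : ℝ)) ((-91 / 720 : ℝ), (1 / 9 : ℝ)) ((-19 / 80 : ℝ), (0 : ℝ)) := by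
  have h' : ∀ f ∈ [(⟨-63, 177, 57, -183⟩ : V4), ⟨0, 0, 0, 333⟩, ⟨100, -140, -20, -113⟩],
      0 ≤ f.ev (x 0) (x 1) (x 2) (1 - x 0 - x 1 - x 2) := h
  have h1 := h' _ (List.Mem.head _)
  have h2 := h' _ (List.Mem.tail _ (List.Mem.head _))
  have h3 := h' _ (List.Mem.tail _ (List.Mem.tail _ (List.Mem.head _)))
  rw [aff4]
  refine tri_mem (D := 37) (by norm_num) h1 h2 h3 ?_ ?_ ?_ <;>
  · simp only [V4.ev]
    push_cast
    ring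

theorem volT8 : volume (tri ((-1 / 12 : ℝ), (0 : ℝ)) ((-91 / 720 : ℝ), (1 / 9 : ℝ)) ((-19 / 80 : ℝ), (0 : ℝ))) = ENNReal.ofReal ((37 / 2160 : ℝ) / 2) := by
  rw [volume_tri]
  congr 2
  rw [det2]
  norm_num [abs_of_pos]

theorem mem9 (x : E)
    (h : ∀ f ∈ forms 9, 0 ≤ f.ev (x 0) (x 1) (x 2) (1 - x 0 - x 1 - x 2)) :
    aff F4 G4 C4 x ∈ tri ((-1 / 12 : ℝ), (0 : ℝ)) ((-1 / 12 : ℝ), (11 / 40 : ℝ)) ((-91 / 720 : ℝ), (1 / 9 : ℝ)) := by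
  have h' : ∀ f ∈ [(⟨-4877, 9283, 2203, -1517⟩ : V4), ⟨-4000, 5600, 800, 4520⟩, ⟨9900, -13860, -1980, -1980⟩],
      0 ≤ f.ev (x 0) (x 1) (x 2) (1 - x 0 - x 1 - x 2) := h
  have h1 := h' _ (List.Mem.head _)
  have h2 := h' _ (List.Mem.tail _ (List.Mem.head _))
  have h3 := h' _ (List.Mem.tail _ (List.Mem.tail _ (List.Mem.head _)))
  rw [aff4]
  refine tri_mem (D := 1023) (by norm_num) h1 h2 h3 ?_ ?_ ?_ <;>
  · simp only [V4.ev]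
    push_cast
    ring

theorem volT9 : volume (tri ((-1 / 12 : ℝ), (0 : ℝ)) ((-1 / 12 : ℝ), (11 / 40 : ℝ)) ((-91 / 720 : ℝ), (1 / 9 : ℝ))) = ENNReal.ofReal ((341 / 28800 : ℝ) / 2) := by
  rw [volume_tri]
  congr 2
  rw [det2]
  norm_num [abs_of_pos]

theorem mem10 (x : E)
    (h : ∀ f ∈ forms 10, 0 ≤ f.ev (x 0) (x 1) (x 2) (1 - x 0 - x 1 - x 2)) :
    aff F5 G5 C5 x ∈ tri ((0 : ℝ), (1 / 12 : ℝ)) ((1 / 9 : ℝ), (91 / 720 : ℝ)) ((0 : ℝ), (19 / 80 : ℝ)) := by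
  have h' : ∀ f ∈ [(⟨-183, 57, 177, -63⟩ : V4), ⟨333, 0, 0, 0⟩, ⟨-113, -20, -140, 100⟩],
      0 ≤ f.ev (x 0) (x 1) (x 2) (1 - x 0 - x 1 - x 2) := h
  have h1 := h' _ (List.Mem.head _)
  have h2 := h' _ (List.Mem.tail _ (List.Mem.head _))
  have h3 := h' _ (List.Mem.tail _ (List.Mem.tail _ (List.Mem.head _)))
  rw [aff5]
  refine tri_mem (D := 37) (by norm_num) h1 h2 h3 ?_ ?_ ?_ <;>
  · simp only [V4.ev]
    push_cast
    ring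

theorem volT10 : volume (tri ((0 : ℝ), (1 / 12 : ℝ)) ((1 / 9 : ℝ), (91 / 720 : ℝ)) ((0 : ℝ), (19 / 80 : ℝ))) = ENNReal.ofReal ((37 / 2160 : ℝ) / 2) := by
  rw [volume_tri]
  congr 2
  rw [det2]
  norm_num [abs_of_pos]

theorem mem11 (x : E)
    (h : ∀ f ∈ forms 11, 0 ≤ f.ev (x 0) (x 1) (x 2) (1 - x 0 - x 1 - x 2)) :
    aff F5 G5 C5 x ∈ tri ((0 : ℝ), (1 / 12 : ℝ)) ((11 / 40 : ℝ), (1 / 12 : ℝ)) ((1 / 9 : ℝ), (91 / 720 : ℝ)) := by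
  have h' : ∀ f ∈ [(⟨-1517, 2203, 9283, -4877⟩ : V4), ⟨4520, 800, 5600, -4000⟩, ⟨-1980, -1980, -13860, 9900⟩],
      0 ≤ f.ev (x 0) (x 1) (x 2) (1 - x 0 - x 1 - x 2) := h
  have h1 := h' _ (List.Mem.head _)
  have h2 := h' _ (List.Mem.tail _ (List.Mem.head _))
  have h3 := h' _ (List.Mem.tail _ (List.Mem.tail _ (List.Mem.head _)))
  rw [aff5]
  refine tri_mem (D := 1023) (by norm_num) h1 h2 h3 ?_ ?_ ?_ <;>
  · simp only [V4.ev]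
    push_cast
    ring

theorem volT11 : volume (tri ((0 : ℝ), (1 / 12 : ℝ)) ((11 / 40 : ℝ), (1 / 12 : ℝ)) ((1 / 9 : ℝ), (91 / 720 : ℝ))) = ENNReal.ofReal ((341 / 28800 : ℝ) / 2) := by
  rw [volume_tri]
  congr 2
  rw [det2]
  norm_num [abs_of_pos]

theorem mem12 (x : E)
    (h : ∀ f ∈ forms 12, 0 ≤ f.ev (x 0) (x 1) (x 2) (1 - x 0 - x 1 - x 2)) :
    aff F6 G6 C6 x ∈ tri ((7 / 160 : ℝ), (0 : ℝ)) ((1 / 5 : ℝ), (0 : ℝ)) ((7 / 160 : ℝ), (5 / 48 : ℝ)) := by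
  have h' : ∀ f ∈ [(⟨112, -208, -48, 32⟩ : V4), ⟨-87, -7, 73, -7⟩, ⟨0, 240, 0, 0⟩],
      0 ≤ f.ev (x 0) (x 1) (x 2) (1 - x 0 - x 1 - x 2) := h
  have h1 := h' _ (List.Mem.head _)
  have h2 := h' _ (List.Mem.tail _ (List.Mem.head _))
  have h3 := h' _ (List.Mem.tail _ (List.Mem.tail _ (List.Mem.head _)))
  rw [aff6]
  refine tri_mem (D := 25) (by norm_num) h1 h2 h3 ?_ ?_ ?_ <;>
  · simp only [V4.ev]
    push_cast
    ring

theorem volT12 : volume (tri ((7 / 160 : ℝ), (0 : ℝ)) ((1 / 5 : ℝ), (0 : ℝ)) ((7 / 160 : ℝ), (5 / 48 : ℝ))) = ENNReal.ofReal ((25 / 1536 : ℝ) / 2) := by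
  rw [volume_tri]
  congr 2
  rw [det2]
  norm_num [abs_of_pos]

theorem mem13 (x : E)
    (h : ∀ f ∈ forms 13, 0 ≤ f.ev (x 0) (x 1) (x 2) (1 - x 0 - x 1 - x 2)) :
    aff F7 G7 C7 x ∈ tri ((0 : ℝ), (-7 / 160 : ℝ)) ((0 : ℝ), (-1 / 5 : ℝ)) ((5 / 48 : ℝ), (-7 / 160 : ℝ)) := by
  have h' : ∀ f ∈ [(⟨32, -48, -208, 112⟩ : V4), ⟨-7, 73, -7, -87⟩, ⟨0, 0, 240, 0⟩],
      0 ≤ f.ev (x 0) (x 1) (x 2) (1 - x 0 - x 1 - x 2) := h
  have h1 := h' _ (List.Mem.head _)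
  have h2 := h' _ (List.Mem.tail _ (List.Mem.head _))
  have h3 := h' _ (List.Mem.tail _ (List.Mem.tail _ (List.Mem.head _)))
  rw [aff7]
  refine tri_mem (D := 25) (by norm_num) h1 h2 h3 ?_ ?_ ?_ <;>
  · simp only [V4.ev]
    push_cast
    ring

theorem volT13 : volume (tri ((0 : ℝ), (-7 / 160 : ℝ)) ((0 : ℝ), (-1 / 5 : ℝ)) ((5 / 48 : ℝ), (-7 / 160 : ℝ))) = ENNReal.ofReal ((25 / 1536 : ℝ) / 2) := by
  rw [volume_tri]
  congr 2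
  rw [det2]
  norm_num [abs_of_pos]

/-- Relative areas of the fourteen cylinders. -/
noncomputable def dd : Fin 14 → ℝ := ![(1 / 9 : ℝ), (1 / 9 : ℝ), (301 / 22500 : ℝ), (43 / 450 : ℝ), (27 / 1600 : ℝ), (27 / 6400 : ℝ), (43 / 1152 : ℝ), (1 / 64 : ℝ), (37 / 2160 : ℝ), (341 / 28800 : ℝ), (37 / 2160 : ℝ), (341 / 28800 : ℝ), (25 / 1536 : ℝ), (25 / 1536 : ℝ)]

theorem dd_sum : ∑ j, dd j = 133837 / 270000 := by
  simp [dd, Fin.sum_univ_succ]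
  norm_num

theorem dd_nonneg (j : Fin 14) : 0 ≤ dd j := by
  fin_cases j <;> simp [dd] <;> norm_num

theorem tri_data (j : Fin 14) : ∃ (f g : E) (c : ℝ × ℝ) (T : Set (ℝ × ℝ)),
    LinearIndependent ℝ ![f, g] ∧ MeasurableSet T ∧
    volume T / volume (aff f g c '' K) ≤ ENNReal.ofReal (dd j) ∧
    ∀ x : E, (∀ φ ∈ forms j, 0 ≤ φ.ev (x 0) (x 1) (x 2) (1 - x 0 - x 1 - x 2)) → aff f g c x ∈ T := by
  fin_cases j
  · exact ⟨F0, G0, C0, _, li0, measurableSet_tri _ _ _,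
      ratio_le (d := dd (0 : Fin 14)) (by simpa [dd] using volT0) half0, mem0⟩
  · exact ⟨F1, G1, C1, _, li1, measurableSet_tri _ _ _,
      ratio_le (d := dd (1 : Fin 14)) (by simpa [dd] using volT1) half1, mem1⟩
  · exact ⟨F2, G2, C2, _, li2, measurableSet_tri _ _ _,
      ratio_le (d := dd (2 : Fin 14)) (by simpa [dd] using volT2) half2, mem2⟩
  · exact ⟨F2, G2, C2, _, li2, measurableSet_tri _ _ _,
      ratio_le (d := dd (3 : Fin 14)) (by simpa [dd] using volT3) half2, mem3⟩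
  · exact ⟨F3, G3, C3, _, li3, measurableSet_tri _ _ _,
      ratio_le (d := dd (4 : Fin 14)) (by simpa [dd] using volT4) half3, mem4⟩
  · exact ⟨F3, G3, C3, _, li3, measurableSet_tri _ _ _,
      ratio_le (d := dd (5 : Fin 14)) (by simpa [dd] using volT5) half3, mem5⟩
  · exact ⟨F3, G3, C3, _, li3, measurableSet_tri _ _ _,
      ratio_le (d := dd (6 : Fin 14)) (by simpa [dd] using volT6) half3, mem6⟩
  · exact ⟨F3, G3, C3, _, li3, measurableSet_tri _ _ _,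
      ratio_le (d := dd (7 : Fin 14)) (by simpa [dd] using volT7) half3, mem7⟩
  · exact ⟨F4, G4, C4, _, li4, measurableSet_tri _ _ _,
      ratio_le (d := dd (8 : Fin 14)) (by simpa [dd] using volT8) half4, mem8⟩
  · exact ⟨F4, G4, C4, _, li4, measurableSet_tri _ _ _,
      ratio_le (d := dd (9 : Fin 14)) (by simpa [dd] using volT9) half4, mem9⟩
  · exact ⟨F5, G5, C5, _, li5, measurableSet_tri _ _ _,
      ratio_le (d := dd (10 : Fin 14)) (by simpa [dd] using volT10) half5, mem10⟩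
  · exact ⟨F5, G5, C5, _, li5, measurableSet_tri _ _ _,
      ratio_le (d := dd (11 : Fin 14)) (by simpa [dd] using volT11) half5, mem11⟩
  · exact ⟨F6, G6, C6, _, li6, measurableSet_tri _ _ _,
      ratio_le (d := dd (12 : Fin 14)) (by simpa [dd] using volT12) half6, mem12⟩
  · exact ⟨F7, G7, C7, _, li7, measurableSet_tri _ _ _,
      ratio_le (d := dd (13 : Fin 14)) (by simpa [dd] using volT13) half7, mem13⟩

/-- The explicit covering. -/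
theorem main : ∃ (v w : Fin 14 → E) (B : Fin 14 → Set (ℝ × ℝ)),
    (∀ i, ‖v i‖ = 1) ∧ (∀ i, ‖w i‖ = 1) ∧ (∀ i, inner ℝ (v i) (w i) = (0 : ℝ)) ∧
    (∀ i, MeasurableSet (B i)) ∧ K ⊆ ⋃ i, planeCoord (v i) (w i) ⁻¹' B i ∧
    ∑ i, volume (B i) / volume (planeCoord (v i) (w i) '' K) ≤
      ENNReal.ofReal (133837 / 270000) := by
  have H : ∀ j : Fin 14, ∃ (v w : E) (B : Set (ℝ × ℝ)), ‖v‖ = 1 ∧ ‖w‖ = 1 ∧ inner ℝ v w = (0 : ℝ) ∧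
      MeasurableSet B ∧
      (∀ x : E, (∀ φ ∈ forms j, 0 ≤ φ.ev (x 0) (x 1) (x 2) (1 - x 0 - x 1 - x 2)) →
        planeCoord v w x ∈ B) ∧
      volume B / volume (planeCoord v w '' K) ≤ ENNReal.ofReal (dd j) := by
    intro j
    obtain ⟨f, g, c, T, hli, hT, hr, hm⟩ := tri_data j
    obtain ⟨v, w, B, h1, h2, h3, hB, hpre, hvol⟩ := reduce f g c hli T hT K
    refine ⟨v, w, B, h1, h2, h3, hB, ?_, by rw [hvol]; exact hr⟩
    intro x hx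
    have : x ∈ planeCoord v w ⁻¹' B := by
      rw [hpre]
      exact hm x hx
    exact this
  choose v w B h1 h2 h3 hB hm hr using H
  refine ⟨v, w, B, h1, h2, h3, hB, ?_, ?_⟩
  · intro x hx
    obtain ⟨h0, h1', h2', h3'⟩ := hx
    have hw : 0 ≤ 1 - x 0 - x 1 - x 2 := by linarith
    obtain ⟨j, hj⟩ := cover h0 h1' h2' hw
    exact Set.mem_iUnion.mpr ⟨j, hm j x hj⟩
  · calc ∑ i, volume (B i) / volume (planeCoord (v i) (w i) '' K)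
        ≤ ∑ i, ENNReal.ofReal (dd i) := Finset.sum_le_sum fun i _ => hr i
      _ = ENNReal.ofReal (∑ i, dd i) :=
          (ENNReal.ofReal_sum_of_nonneg fun i _ => dd_nonneg i).symm
      _ = ENNReal.ofReal (133837 / 270000) := by rw [dd_sum]

end Vale.Agent.P243C
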