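import Mathlib
import Vale.Agent.P243.Defs
import Vale.Agent.P243G.Geom

/-! Measure-theoretic reduction for the explicit cylinder covering of a simplex. -/

open MeasureTheory Vale.Agent.P243 Set
open scoped ENNReal

namespace Vale.Agent.P243C

abbrev E := EuclideanSpace ℝ (Fin 3)

/-- The standard simplex in three-space. -/
def K : Set E := {x | 0 ≤ x 0 ∧ 0 ≤ x 1 ∧ 0 ≤ x 2 ∧ x 0 + x 1 + x 2 ≤ 1}

lemma cont_coord (i : Fin 3) : Continuous fun x : E => x i := by fun_prop

lemma K_isClosed : IsClosed K := by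
  have h0 := cont_coord 0
  have h1 := cont_coord 1
  have h2 := cont_coord 2
  have a : IsClosed {x : E | 0 ≤ x 0} := isClosed_le continuous_const h0
  have b : IsClosed {x : E | 0 ≤ x 1} := isClosed_le continuous_const h1
  have c : IsClosed {x : E | 0 ≤ x 2} := isClosed_le continuous_const h2
  have d : IsClosed {x : E | x 0 + x 1 + x 2 ≤ 1} :=
    isClosed_le ((h0.add h1).add h2) continuous_const
  exact a.inter (b.inter (c.inter d))

lemma K_bounded : Bornology.IsBounded K := by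
  refine (Metric.isBounded_closedBall (x := (0 : E)) (r := 2)).subset ?_
  rintro x ⟨h0, h1, h2, h3⟩
  rw [mem_closedBall_zero_iff, EuclideanSpace.norm_eq]
  rw [Fin.sum_univ_three]
  simp only [Real.norm_eq_abs, sq_abs]
  have h5 : x 0 ^ 2 + x 1 ^ 2 + x 2 ^ 2 ≤ 2 ^ 2 := by nlinarith
  calc Real.sqrt (x 0 ^ 2 + x 1 ^ 2 + x 2 ^ 2) ≤ Real.sqrt (2 ^ 2) := Real.sqrt_le_sqrt h5
    _ = 2 := Real.sqrt_sq (by norm_num)

theorem K_isCompact : IsCompact K :=
  Metric.isCompact_of_isClosed_isBounded K_isClosed K_bounded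

theorem K_convex : Convex ℝ K := by
  rintro x ⟨h0, h1, h2, h3⟩ y ⟨k0, k1, k2, k3⟩ a b ha hb hab
  have e : ∀ i, (a • x + b • y) i = a * x i + b * y i := fun i => by simp
  refine ⟨?_, ?_, ?_, ?_⟩
  · rw [e]; positivity
  · rw [e]; positivity
  · rw [e]; positivity
  · rw [e, e, e]
    have : a * (x 0 + x 1 + x 2) + b * (y 0 + y 1 + y 2) ≤ a * 1 + b * 1 :=
      add_le_add (mul_le_mul_of_nonneg_left h3 ha) (mul_le_mul_of_nonneg_left k3 hb)
    nlinarith

theorem K_interior : (interior K).Nonempty := by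
  have h0 := cont_coord 0
  have h1 := cont_coord 1
  have h2 := cont_coord 2
  have hopen : IsOpen {x : E | 0 < x 0 ∧ 0 < x 1 ∧ 0 < x 2 ∧ x 0 + x 1 + x 2 < 1} := by
    have a : IsOpen {x : E | 0 < x 0} := isOpen_lt continuous_const h0
    have b : IsOpen {x : E | 0 < x 1} := isOpen_lt continuous_const h1
    have c : IsOpen {x : E | 0 < x 2} := isOpen_lt continuous_const h2
    have d : IsOpen {x : E | x 0 + x 1 + x 2 < 1} :=
      isOpen_lt ((h0.add h1).add h2) continuous_const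
    exact a.inter (b.inter (c.inter d))
  have hsub : {x : E | 0 < x 0 ∧ 0 < x 1 ∧ 0 < x 2 ∧ x 0 + x 1 + x 2 < 1} ⊆ K := by
    rintro x ⟨a, b, c, d⟩
    exact ⟨a.le, b.le, c.le, d.le⟩
  refine ⟨WithLp.toLp 2 ![1 / 8, 1 / 8, 1 / 8], interior_maximal hsub hopen ?_⟩
  refine ⟨?_, ?_, ?_, ?_⟩
  · show (0 : ℝ) < 1 / 8
    norm_num
  · show (0 : ℝ) < 1 / 8
    norm_num
  · show (0 : ℝ) < 1 / 8
    norm_num
  · show (1 / 8 + 1 / 8 + 1 / 8 : ℝ) < 1
    norm_num

/-- Filled planar triangle with vertices `a b c`. -/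
def tri (a b c : ℝ × ℝ) : Set (ℝ × ℝ) :=
  {p | ∃ s t u : ℝ, 0 ≤ s ∧ 0 ≤ t ∧ 0 ≤ u ∧ s + t + u = 1 ∧
    p = (s * a.1 + t * b.1 + u * c.1, s * a.2 + t * b.2 + u * c.2)}

/-- Twice the signed area. -/
def det2 (a b c : ℝ × ℝ) : ℝ := (b.1 - a.1) * (c.2 - a.2) - (b.2 - a.2) * (c.1 - a.1)

lemma isCompact_stdTri : IsCompact Vale.Agent.P243G.stdTri := by
  have hcl : IsClosed Vale.Agent.P243G.stdTri := by
    apply IsClosed.inter (isClosed_le continuous_const continuous_fst)
    apply IsClosed.inter (isClosed_le continuous_const continuous_snd)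
    exact isClosed_le (continuous_fst.add continuous_snd) continuous_const
  refine (isCompact_Icc (a := ((0 : ℝ), (0 : ℝ))) (b := ((1 : ℝ), (1 : ℝ)))).of_isClosed_subset hcl ?_
  rintro ⟨x, y⟩ ⟨h1, h2, h3⟩
  simp only at h1 h2 h3
  exact ⟨⟨h1, h2⟩, ⟨by show x ≤ 1; linarith, by show y ≤ 1; linarith⟩⟩

/-- The triangle as an affine image of the standard triangle. -/
lemma tri_eq_image (a b c : ℝ × ℝ) :
    tri a b c = (fun p => a + p) '' (Vale.Agent.P243G.lin2 (b - a) (c - a) ''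
      Vale.Agent.P243G.stdTri) := by
  ext p
  constructor
  · rintro ⟨s, t, u, hs, ht, hu, hsum, rfl⟩
    refine ⟨Vale.Agent.P243G.lin2 (b - a) (c - a) (t, u), ⟨(t, u), ⟨ht, hu, by show t + u ≤ 1; linarith⟩, rfl⟩, ?_⟩
    rw [Vale.Agent.P243G.lin2_apply]
    have hs' : s = 1 - t - u := by linarith
    subst hs'
    ext
    · simp only [Prod.fst_add, Prod.fst_sub]; ring
    · simp only [Prod.snd_add, Prod.snd_sub]; ring
  · rintro ⟨_, ⟨⟨t, u⟩, ⟨ht, hu, htu⟩, rfl⟩, rfl⟩
    simp only at ht hu htu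
    refine ⟨1 - t - u, t, u, by linarith, ht, hu, by ring, ?_⟩
    rw [Vale.Agent.P243G.lin2_apply]
    ext
    · simp only [Prod.fst_add, Prod.fst_sub]; ring
    · simp only [Prod.snd_add, Prod.snd_sub]; ring

theorem measurableSet_tri (a b c : ℝ × ℝ) : MeasurableSet (tri a b c) := by
  rw [tri_eq_image]
  have h1 : IsCompact (Vale.Agent.P243G.lin2 (b - a) (c - a) '' Vale.Agent.P243G.stdTri) :=
    isCompact_stdTri.image (LinearMap.continuous_of_finiteDimensional _)
  have h2 := h1.image (by fun_prop : Continuous fun p : ℝ × ℝ => a + p)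
  exact h2.isClosed.measurableSet

theorem volume_tri (a b c : ℝ × ℝ) : volume (tri a b c) = ENNReal.ofReal (|det2 a b c| / 2) := by
  have hdet : LinearMap.det (Vale.Agent.P243G.lin2 (b - a) (c - a)) = det2 a b c := by
    rw [Vale.Agent.P243G.det_lin2]
    simp only [det2, Prod.fst_sub, Prod.snd_sub]
    ring
  rw [tri_eq_image, Set.image_add_left, measure_preimage_add, Measure.addHaar_image_linearMap, hdet,
    Vale.Agent.P243G.volume_stdTri, ← ENNReal.ofReal_mul (abs_nonneg _)]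
  congr 1
  ring

/-- Affine map to the plane given by two vectors and a constant. -/
noncomputable def aff (f g : E) (c : ℝ × ℝ) (x : E) : ℝ × ℝ :=
  (inner ℝ f x + c.1, inner ℝ g x + c.2)

/-- An affine triangular map of the plane scales all areas by the factor `A * D`. -/
lemma volume_image_triangular (A C D : ℝ) (c : ℝ × ℝ) (X : Set (ℝ × ℝ)) :
    volume ((fun p : ℝ × ℝ => (A * p.1 + c.1, C * p.1 + D * p.2 + c.2)) '' X) =
      ENNReal.ofReal |A * D| * volume X := by
  have hdet : LinearMap.det (Vale.Agent.P243G.lin2 (A, C) (0, D)) = A * D := by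
    rw [Vale.Agent.P243G.det_lin2]
    simp
  have himg : (fun p : ℝ × ℝ => (A * p.1 + c.1, C * p.1 + D * p.2 + c.2)) '' X =
      (fun p => c + p) '' (Vale.Agent.P243G.lin2 (A, C) (0, D) '' X) := by
    rw [Set.image_image]
    apply Set.image_congr
    intro p _
    rw [Vale.Agent.P243G.lin2_apply]
    ext
    · simp only [Prod.fst_add]; ring
    · simp only [Prod.snd_add]; ring
  rw [himg, Set.image_add_left, measure_preimage_add, Measure.addHaar_image_linearMap, hdet]

/-- Change of orthonormal coordinates: any affine surjection with kernel direction normal to the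
orthonormal pair can be written in `planeCoord` form with the same ratio of areas. -/
theorem reduce (f g : E) (c : ℝ × ℝ) (hfg : LinearIndependent ℝ ![f, g]) (T : Set (ℝ × ℝ))
    (hT : MeasurableSet T) (S : Set E) :
    ∃ (v w : E) (B : Set (ℝ × ℝ)), ‖v‖ = 1 ∧ ‖w‖ = 1 ∧ inner ℝ v w = (0 : ℝ) ∧ MeasurableSet B ∧
      planeCoord v w ⁻¹' B = aff f g c ⁻¹' T ∧
      volume B / volume (planeCoord v w '' S) = volume T / volume (aff f g c '' S) := by
  have hpair := LinearIndependent.pair_iff.1 hfg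
  have hf0 : f ≠ 0 := by
    intro h
    have := hpair 1 0 (by simp [h])
    simp at this
  have hfn : 0 < ‖f‖ := norm_pos_iff.2 hf0
  set v : E := (‖f‖)⁻¹ • f with hv
  have hvn : ‖v‖ = 1 := by
    rw [hv, norm_smul, norm_inv, norm_norm]
    exact inv_mul_cancel₀ hfn.ne'
  have hfv : f = ‖f‖ • v := by
    rw [hv, smul_smul, mul_inv_cancel₀ hfn.ne', one_smul]
  set C : ℝ := inner ℝ v g with hC
  set g' : E := g - C • v with hg'
  have hg'0 : g' ≠ 0 := by
    intro h
    have e : (-(C * (‖f‖)⁻¹)) • f + (1 : ℝ) • g = 0 := by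
      have : g = C • v := sub_eq_zero.1 h
      rw [one_smul, neg_smul]
      rw [hv, smul_smul] at this
      rw [← this]
      simp
    have := (hpair _ _ e).2
    exact one_ne_zero this
  have hDn : 0 < ‖g'‖ := norm_pos_iff.2 hg'0
  set w : E := (‖g'‖)⁻¹ • g' with hw
  have hwn : ‖w‖ = 1 := by
    rw [hw, norm_smul, norm_inv, norm_norm]
    exact inv_mul_cancel₀ hDn.ne'
  have hg'w : g' = ‖g'‖ • w := by
    rw [hw, smul_smul, mul_inv_cancel₀ hDn.ne', one_smul]
  have hvv : inner ℝ v v = (1 : ℝ) := by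
    rw [real_inner_self_eq_norm_sq, hvn]; norm_num
  have hvw : inner ℝ v w = (0 : ℝ) := by
    have h1 : inner ℝ v g' = (0 : ℝ) := by
      rw [hg', inner_sub_right, real_inner_smul_right, hvv, mul_one, ← hC, sub_self]
    rw [hw, real_inner_smul_right, h1, mul_zero]
  have hgdec : g = C • v + ‖g'‖ • w := by
    rw [← hg'w, hg']; abel
  -- the triangular map
  let φ : ℝ × ℝ → ℝ × ℝ := fun p => (‖f‖ * p.1 + c.1, C * p.1 + ‖g'‖ * p.2 + c.2)
  have hφc : Continuous φ := by fun_prop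
  have hφs : Function.Surjective φ := by
    intro q
    refine ⟨((q.1 - c.1) / ‖f‖, (q.2 - c.2 - C * ((q.1 - c.1) / ‖f‖)) / ‖g'‖), ?_⟩
    ext
    · show ‖f‖ * ((q.1 - c.1) / ‖f‖) + c.1 = q.1
      field_simp
      ring
    · show C * ((q.1 - c.1) / ‖f‖) + ‖g'‖ * ((q.2 - c.2 - C * ((q.1 - c.1) / ‖f‖)) / ‖g'‖) + c.2 = q.2
      field_simp
      ring
  have hcomp : ∀ x, aff f g c x = φ (planeCoord v w x) := by
    intro x
    have e1 : inner ℝ f x = ‖f‖ * inner ℝ v x := by
      conv_lhs => rw [hfv]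
      rw [real_inner_smul_left]
    have e2 : inner ℝ g x = C * inner ℝ v x + ‖g'‖ * inner ℝ w x := by
      conv_lhs => rw [hgdec]
      rw [inner_add_left, real_inner_smul_left v x C, real_inner_smul_left w x ‖g'‖]
    simp only [aff, φ, planeCoord]
    rw [e1, e2]
  have hvol : ∀ X : Set (ℝ × ℝ), volume (φ '' X) =
      ENNReal.ofReal |‖f‖ * ‖g'‖| * volume X := fun X => volume_image_triangular _ _ _ c X
  have hδ0 : ENNReal.ofReal |‖f‖ * ‖g'‖| ≠ 0 := by
    simp only [ne_eq, ENNReal.ofReal_eq_zero, not_le]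
    exact abs_pos.2 (mul_pos hfn hDn).ne'
  have hδt : ENNReal.ofReal |‖f‖ * ‖g'‖| ≠ ⊤ := ENNReal.ofReal_ne_top
  refine ⟨v, w, φ ⁻¹' T, hvn, hwn, hvw, hT.preimage hφc.measurable, ?_, ?_⟩
  · ext x
    simp only [mem_preimage, hcomp]
  · have e1 : T = φ '' (φ ⁻¹' T) := (Set.image_preimage_eq T hφs).symm
    have e2 : aff f g c '' S = φ '' (planeCoord v w '' S) := by
      rw [Set.image_image]
      exact Set.image_congr fun x _ => hcomp x
    rw [e2]
    conv_rhs => rw [e1]
    rw [hvol, hvol, ENNReal.mul_div_mul_left _ _ hδ0 hδt]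

/-- Combinations of three points of the simplex stay in the simplex. -/
lemma K_comb {a b d : E} (ha : a ∈ K) (hb : b ∈ K) (hd : d ∈ K) {s t u : ℝ} (hs : 0 ≤ s) (ht : 0 ≤ t)
    (hu : 0 ≤ u) (hsum : s + t + u = 1) : s • a + t • b + u • d ∈ K := by
  obtain ⟨a0, a1, a2, a3⟩ := ha
  obtain ⟨b0, b1, b2, b3⟩ := hb
  obtain ⟨d0, d1, d2, d3⟩ := hd
  have e : ∀ i, (s • a + t • b + u • d) i = s * a i + t * b i + u * d i := fun i => by simp
  refine ⟨?_, ?_, ?_, ?_⟩
  · rw [e]; positivity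
  · rw [e]; positivity
  · rw [e]; positivity
  · rw [e, e, e]
    have h1 := mul_le_mul_of_nonneg_left a3 hs
    have h2 := mul_le_mul_of_nonneg_left b3 ht
    have h3 := mul_le_mul_of_nonneg_left d3 hu
    nlinarith

lemma aff_comb (f g : E) (c : ℝ × ℝ) (a b d : E) {s t u : ℝ} (hsum : s + t + u = 1) :
    aff f g c (s • a + t • b + u • d) =
      (s * (aff f g c a).1 + t * (aff f g c b).1 + u * (aff f g c d).1,
       s * (aff f g c a).2 + t * (aff f g c b).2 + u * (aff f g c d).2) := by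
  have hu : u = 1 - s - t := by linarith
  subst hu
  simp only [aff, inner_add_right, real_inner_smul_right]
  ext
  · simp only; ring
  · simp only; ring

lemma tri_subset_image (f g : E) (c : ℝ × ℝ) {a b d : E} (ha : a ∈ K) (hb : b ∈ K) (hd : d ∈ K) :
    tri (aff f g c a) (aff f g c b) (aff f g c d) ⊆ aff f g c '' K := by
  rintro _ ⟨s, t, u, hs, ht, hu, hsum, rfl⟩
  exact ⟨s • a + t • b + u • d, K_comb ha hb hd hs ht hu hsum, aff_comb f g c a b d hsum⟩

/-- Lower bound for the area of the projection of `K`, when the four vertices of `K` go to the ends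
of two crossing diagonals along the coordinate axes, each of length one.  -/
theorem half_le_volume_image (f g : E) (c : ℝ × ℝ) (p q : ℝ) (hp0 : 0 ≤ p) (hp1 : p ≤ 1)
    (hq0 : 0 ≤ q) (hq1 : q ≤ 1) (a₁ a₂ b₁ b₂ : E) (ha₁ : a₁ ∈ K) (ha₂ : a₂ ∈ K) (hb₁ : b₁ ∈ K)
    (hb₂ : b₂ ∈ K) (h₁ : aff f g c a₁ = (-p, 0)) (h₂ : aff f g c a₂ = (1 - p, 0))
    (h₃ : aff f g c b₁ = (0, -q)) (h₄ : aff f g c b₂ = (0, 1 - q)) :
    (1 / 2 : ℝ≥0∞) ≤ volume (aff f g c '' K) := by
  have hsub1 := tri_subset_image f g c ha₁ ha₂ hb₁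
  have hsub2 := tri_subset_image f g c ha₁ ha₂ hb₂
  rw [h₁, h₂, h₃] at hsub1
  rw [h₁, h₂, h₄] at hsub2
  set X := tri (-p, 0) (1 - p, 0) (0, -q) with hX
  set Y := tri (-p, 0) (1 - p, 0) (0, 1 - q) with hY
  have hvX : volume X = ENNReal.ofReal (q / 2) := by
    rw [hX, volume_tri]
    congr 1
    simp only [det2]
    have : (1 - p - -p) * (-q - 0) - (0 - 0) * (0 - -p) = -q := by ring
    rw [this, abs_neg, abs_of_nonneg hq0]
  have hvY : volume Y = ENNReal.ofReal ((1 - q) / 2) := by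
    rw [hY, volume_tri]
    congr 1
    simp only [det2]
    have : (1 - p - -p) * (1 - q - 0) - (0 - 0) * (0 - -p) = 1 - q := by ring
    rw [this, abs_of_nonneg (by linarith)]
  have hXlow : ∀ x ∈ X, x.2 ≤ 0 := by
    rintro _ ⟨s, t, u, hs, ht, hu, hsum, rfl⟩
    simp only
    have : 0 ≤ u * q := mul_nonneg hu hq0
    linarith
  have hYhigh : ∀ x ∈ Y, 0 ≤ x.2 := by
    rintro _ ⟨s, t, u, hs, ht, hu, hsum, rfl⟩
    simp only
    have : 0 ≤ u * (1 - q) := mul_nonneg hu (by linarith)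
    linarith
  have hdisj : AEDisjoint volume X Y := by
    have hline := Vale.Agent.P243G.volume_line (q := ((0 : ℝ), (0 : ℝ))) (r := ((1 : ℝ), (0 : ℝ)))
      (by simp)
    refine measure_mono_null ?_ hline
    rintro x ⟨h1, h2⟩
    have h3 := hXlow x h1
    have h4 := hYhigh x h2
    have h5 : x.2 = 0 := le_antisymm h3 h4
    show Vale.Agent.P243G.D (0, 0) (1, 0) x = 0
    simp only [Vale.Agent.P243G.D, h5]
    ring
  have hun : volume (X ∪ Y) = ENNReal.ofReal (q / 2) + ENNReal.ofReal ((1 - q) / 2) := by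
    rw [measure_union₀ (measurableSet_tri _ _ _).nullMeasurableSet hdisj, hvX, hvY]
  have hhalf : (1 / 2 : ℝ≥0∞) = ENNReal.ofReal (q / 2) + ENNReal.ofReal ((1 - q) / 2) := by
    rw [← ENNReal.ofReal_add (by positivity) (by linarith)]
    have : q / 2 + (1 - q) / 2 = (1 / 2 : ℝ) := by ring
    rw [this, ENNReal.ofReal_div_of_pos (by norm_num)]
    simp
  rw [hhalf, ← hun]
  exact measure_mono (union_subset hsub1 hsub2)

end Vale.Agent.P243C
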