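import Mathlib

/-!
Certificate checker: a tree of edge bisections of a simplicial cone in four-space, whose leaves are
contained in the nonnegativity region of a list of integer linear forms.
-/

namespace Vale.Agent.P243C

/-- An integer vector (or integer linear form) in four-space. -/
structure V4 where
  a : Int
  b : Int
  c : Int
  d : Int

/-- Integer bilinear pairing. -/
def V4.dot (f v : V4) : Int := f.a * v.a + f.b * v.b + f.c * v.c + f.d * v.d

/-- Value of an integer linear form at a real point. -/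
noncomputable def V4.ev (f : V4) (x y z t : ℝ) : ℝ :=
  (f.a : ℝ) * x + (f.b : ℝ) * y + (f.c : ℝ) * z + (f.d : ℝ) * t

/-- The point `(x, y, z, t)` is a nonnegative combination of the four given vectors. -/
def InC (p q r s : V4) (x y z t : ℝ) : Prop :=
  ∃ c0 c1 c2 c3 : ℝ, 0 ≤ c0 ∧ 0 ≤ c1 ∧ 0 ≤ c2 ∧ 0 ≤ c3 ∧
    x = c0 * p.a + c1 * q.a + c2 * r.a + c3 * s.a ∧
    y = c0 * p.b + c1 * q.b + c2 * r.b + c3 * s.b ∧
    z = c0 * p.c + c1 * q.c + c2 * r.c + c3 * s.c ∧
    t = c0 * p.d + c1 * q.d + c2 * r.d + c3 * s.d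

/-- Bisection tree. -/
inductive T where
  | leaf (j : Nat) : T
  | node (e : Nat) (a b g : Int) (u : V4) (l r : T) : T

/-- The vector `u` satisfies `g u = a v + b w` with `a, b, g` positive. -/
def eqc (a b g : Int) (v w u : V4) : Bool :=
  decide (0 < a) && decide (0 < b) && decide (0 < g) &&
  decide (g * u.a = a * v.a + b * w.a) && decide (g * u.b = a * v.b + b * w.b) &&
  decide (g * u.c = a * v.c + b * w.c) && decide (g * u.d = a * v.d + b * w.d)

/-- Check a leaf: all forms are nonnegative at all four vectors. -/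
def leafOk (fs : List V4) (p q r s : V4) : Bool :=
  !fs.isEmpty && fs.all fun f => decide (0 ≤ f.dot p) && decide (0 ≤ f.dot q) &&
    decide (0 ≤ f.dot r) && decide (0 ≤ f.dot s)

/-- The checker. The edge code `e` selects the bisected edge; the left child replaces the second
end point of the edge by `u`, the right child replaces the first. -/
def chk (forms : Nat → List V4) : T → V4 → V4 → V4 → V4 → Bool
  | .leaf j, p, q, r, s => leafOk (forms j) p q r s
  | .node 0 a b g u l r, p, q, r', s =>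
      eqc a b g p q u && chk forms l p u r' s && chk forms r u q r' s
  | .node 1 a b g u l r, p, q, r', s =>
      eqc a b g p r' u && chk forms l p q u s && chk forms r u q r' s
  | .node 2 a b g u l r, p, q, r', s =>
      eqc a b g p s u && chk forms l p q r' u && chk forms r u q r' s
  | .node 3 a b g u l r, p, q, r', s =>
      eqc a b g q r' u && chk forms l p q u s && chk forms r p u r' s
  | .node 4 a b g u l r, p, q, r', s =>
      eqc a b g q s u && chk forms l p q r' u && chk forms r p u r' s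
  | .node 5 a b g u l r, p, q, r', s =>
      eqc a b g r' s u && chk forms l p q r' u && chk forms r p q u s
  | .node _ _ _ _ _ _ _, _, _, _, _ => false

theorem eqc_real {a b g : Int} {v w u : V4} (h : eqc a b g v w u = true) :
    (0 : ℝ) < a ∧ (0 : ℝ) < b ∧ (0 : ℝ) < g ∧
    (g : ℝ) * u.a = a * v.a + b * w.a ∧ (g : ℝ) * u.b = a * v.b + b * w.b ∧
    (g : ℝ) * u.c = a * v.c + b * w.c ∧ (g : ℝ) * u.d = a * v.d + b * w.d := by
  simp only [eqc, Bool.and_eq_true, decide_eq_true_eq] at h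
  obtain ⟨⟨⟨⟨⟨⟨ha, hb⟩, hg⟩, h1⟩, h2⟩, h3⟩, h4⟩ := h
  refine ⟨by exact_mod_cast ha, by exact_mod_cast hb, by exact_mod_cast hg, ?_, ?_, ?_, ?_⟩
  · exact_mod_cast h1
  · exact_mod_cast h2
  · exact_mod_cast h3
  · exact_mod_cast h4

/-- Replacing the second vector of an edge. -/
theorem step_left {ci ck a b g P Ui Uk : ℝ} (hb : 0 < b) (hP : g * P = a * Ui + b * Uk) :
    ci * Ui + ck * Uk = (ci - ck * a / b) * Ui + (ck * g / b) * P := by
  have : (ck * g / b) * P = ck / b * (g * P) := by ring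
  rw [this, hP]
  field_simp
  ring

/-- Replacing the first vector of an edge. -/
theorem step_right {ci ck a b g P Ui Uk : ℝ} (ha : 0 < a) (hP : g * P = a * Ui + b * Uk) :
    ci * Ui + ck * Uk = (ci * g / a) * P + (ck - ci * b / a) * Uk := by
  have : (ci * g / a) * P = ci / a * (g * P) := by ring
  rw [this, hP]
  field_simp
  ring

theorem coef_sub {ci ck a b : ℝ} (hb : 0 < b) (h : ck * a ≤ ci * b) : 0 ≤ ci - ck * a / b := by
  rw [sub_nonneg, div_le_iff₀ hb]
  exact h

theorem coef_div {ck g b : ℝ} (hk : 0 ≤ ck) (hg : 0 < g) (hb : 0 < b) : 0 ≤ ck * g / b := by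
  positivity

theorem split0 {p q r s u : V4} {a b g : Int} (h : eqc a b g p q u = true)
    {x y z t : ℝ} (H : InC p q r s x y z t) :
    InC p u r s x y z t ∨ InC u q r s x y z t := by
  obtain ⟨ha, hb, hg, h1, h2, h3, h4⟩ := eqc_real h
  obtain ⟨c0, c1, c2, c3, h0, h1', h2', h3', hx, hy, hz, ht⟩ := H
  rcases le_total (c1 * (a : ℝ)) (c0 * (b : ℝ)) with hle | hle
  · left
    refine ⟨(c0 - c1 * a / b), (c1 * g / b), c2, c3, ?_, ?_, ?_, ?_, ?_, ?_, ?_, ?_⟩
    · exact coef_sub hb hle
    · exact coef_div h1' hg hb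
    · exact h2'
    · exact h3'
    · rw [hx]; linarith [step_left (ci := c0) (ck := c1) hb h1]
    · rw [hy]; linarith [step_left (ci := c0) (ck := c1) hb h2]
    · rw [hz]; linarith [step_left (ci := c0) (ck := c1) hb h3]
    · rw [ht]; linarith [step_left (ci := c0) (ck := c1) hb h4]
  · right
    have hle' : c0 * (b : ℝ) ≤ c1 * (a : ℝ) := hle
    refine ⟨(c0 * g / a), (c1 - c0 * b / a), c2, c3, ?_, ?_, ?_, ?_, ?_, ?_, ?_, ?_⟩
    · exact coef_div h0 hg ha
    · exact coef_sub ha hle'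
    · exact h2'
    · exact h3'
    · rw [hx]; linarith [step_right (ci := c0) (ck := c1) ha h1]
    · rw [hy]; linarith [step_right (ci := c0) (ck := c1) ha h2]
    · rw [hz]; linarith [step_right (ci := c0) (ck := c1) ha h3]
    · rw [ht]; linarith [step_right (ci := c0) (ck := c1) ha h4]

theorem split1 {p q r s u : V4} {a b g : Int} (h : eqc a b g p r u = true)
    {x y z t : ℝ} (H : InC p q r s x y z t) :
    InC p q u s x y z t ∨ InC u q r s x y z t := by
  obtain ⟨ha, hb, hg, h1, h2, h3, h4⟩ := eqc_real h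
  obtain ⟨c0, c1, c2, c3, h0, h1', h2', h3', hx, hy, hz, ht⟩ := H
  rcases le_total (c2 * (a : ℝ)) (c0 * (b : ℝ)) with hle | hle
  · left
    refine ⟨(c0 - c2 * a / b), c1, (c2 * g / b), c3, ?_, ?_, ?_, ?_, ?_, ?_, ?_, ?_⟩
    · exact coef_sub hb hle
    · exact h1'
    · exact coef_div h2' hg hb
    · exact h3'
    · rw [hx]; linarith [step_left (ci := c0) (ck := c2) hb h1]
    · rw [hy]; linarith [step_left (ci := c0) (ck := c2) hb h2]
    · rw [hz]; linarith [step_left (ci := c0) (ck := c2) hb h3]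
    · rw [ht]; linarith [step_left (ci := c0) (ck := c2) hb h4]
  · right
    have hle' : c0 * (b : ℝ) ≤ c2 * (a : ℝ) := hle
    refine ⟨(c0 * g / a), c1, (c2 - c0 * b / a), c3, ?_, ?_, ?_, ?_, ?_, ?_, ?_, ?_⟩
    · exact coef_div h0 hg ha
    · exact h1'
    · exact coef_sub ha hle'
    · exact h3'
    · rw [hx]; linarith [step_right (ci := c0) (ck := c2) ha h1]
    · rw [hy]; linarith [step_right (ci := c0) (ck := c2) ha h2]
    · rw [hz]; linarith [step_right (ci := c0) (ck := c2) ha h3]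
    · rw [ht]; linarith [step_right (ci := c0) (ck := c2) ha h4]

theorem split2 {p q r s u : V4} {a b g : Int} (h : eqc a b g p s u = true)
    {x y z t : ℝ} (H : InC p q r s x y z t) :
    InC p q r u x y z t ∨ InC u q r s x y z t := by
  obtain ⟨ha, hb, hg, h1, h2, h3, h4⟩ := eqc_real h
  obtain ⟨c0, c1, c2, c3, h0, h1', h2', h3', hx, hy, hz, ht⟩ := H
  rcases le_total (c3 * (a : ℝ)) (c0 * (b : ℝ)) with hle | hle
  · left
    refine ⟨(c0 - c3 * a / b), c1, c2, (c3 * g / b), ?_, ?_, ?_, ?_, ?_, ?_, ?_, ?_⟩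
    · exact coef_sub hb hle
    · exact h1'
    · exact h2'
    · exact coef_div h3' hg hb
    · rw [hx]; linarith [step_left (ci := c0) (ck := c3) hb h1]
    · rw [hy]; linarith [step_left (ci := c0) (ck := c3) hb h2]
    · rw [hz]; linarith [step_left (ci := c0) (ck := c3) hb h3]
    · rw [ht]; linarith [step_left (ci := c0) (ck := c3) hb h4]
  · right
    have hle' : c0 * (b : ℝ) ≤ c3 * (a : ℝ) := hle
    refine ⟨(c0 * g / a), c1, c2, (c3 - c0 * b / a), ?_, ?_, ?_, ?_, ?_, ?_, ?_, ?_⟩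
    · exact coef_div h0 hg ha
    · exact h1'
    · exact h2'
    · exact coef_sub ha hle'
    · rw [hx]; linarith [step_right (ci := c0) (ck := c3) ha h1]
    · rw [hy]; linarith [step_right (ci := c0) (ck := c3) ha h2]
    · rw [hz]; linarith [step_right (ci := c0) (ck := c3) ha h3]
    · rw [ht]; linarith [step_right (ci := c0) (ck := c3) ha h4]

theorem split3 {p q r s u : V4} {a b g : Int} (h : eqc a b g q r u = true)
    {x y z t : ℝ} (H : InC p q r s x y z t) :
    InC p q u s x y z t ∨ InC p u r s x y z t := by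
  obtain ⟨ha, hb, hg, h1, h2, h3, h4⟩ := eqc_real h
  obtain ⟨c0, c1, c2, c3, h0, h1', h2', h3', hx, hy, hz, ht⟩ := H
  rcases le_total (c2 * (a : ℝ)) (c1 * (b : ℝ)) with hle | hle
  · left
    refine ⟨c0, (c1 - c2 * a / b), (c2 * g / b), c3, ?_, ?_, ?_, ?_, ?_, ?_, ?_, ?_⟩
    · exact h0
    · exact coef_sub hb hle
    · exact coef_div h2' hg hb
    · exact h3'
    · rw [hx]; linarith [step_left (ci := c1) (ck := c2) hb h1]
    · rw [hy]; linarith [step_left (ci := c1) (ck := c2) hb h2]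
    · rw [hz]; linarith [step_left (ci := c1) (ck := c2) hb h3]
    · rw [ht]; linarith [step_left (ci := c1) (ck := c2) hb h4]
  · right
    have hle' : c1 * (b : ℝ) ≤ c2 * (a : ℝ) := hle
    refine ⟨c0, (c1 * g / a), (c2 - c1 * b / a), c3, ?_, ?_, ?_, ?_, ?_, ?_, ?_, ?_⟩
    · exact h0
    · exact coef_div h1' hg ha
    · exact coef_sub ha hle'
    · exact h3'
    · rw [hx]; linarith [step_right (ci := c1) (ck := c2) ha h1]
    · rw [hy]; linarith [step_right (ci := c1) (ck := c2) ha h2]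
    · rw [hz]; linarith [step_right (ci := c1) (ck := c2) ha h3]
    · rw [ht]; linarith [step_right (ci := c1) (ck := c2) ha h4]

theorem split4 {p q r s u : V4} {a b g : Int} (h : eqc a b g q s u = true)
    {x y z t : ℝ} (H : InC p q r s x y z t) :
    InC p q r u x y z t ∨ InC p u r s x y z t := by
  obtain ⟨ha, hb, hg, h1, h2, h3, h4⟩ := eqc_real h
  obtain ⟨c0, c1, c2, c3, h0, h1', h2', h3', hx, hy, hz, ht⟩ := H
  rcases le_total (c3 * (a : ℝ)) (c1 * (b : ℝ)) with hle | hle
  · left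
    refine ⟨c0, (c1 - c3 * a / b), c2, (c3 * g / b), ?_, ?_, ?_, ?_, ?_, ?_, ?_, ?_⟩
    · exact h0
    · exact coef_sub hb hle
    · exact h2'
    · exact coef_div h3' hg hb
    · rw [hx]; linarith [step_left (ci := c1) (ck := c3) hb h1]
    · rw [hy]; linarith [step_left (ci := c1) (ck := c3) hb h2]
    · rw [hz]; linarith [step_left (ci := c1) (ck := c3) hb h3]
    · rw [ht]; linarith [step_left (ci := c1) (ck := c3) hb h4]
  · right
    have hle' : c1 * (b : ℝ) ≤ c3 * (a : ℝ) := hle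
    refine ⟨c0, (c1 * g / a), c2, (c3 - c1 * b / a), ?_, ?_, ?_, ?_, ?_, ?_, ?_, ?_⟩
    · exact h0
    · exact coef_div h1' hg ha
    · exact h2'
    · exact coef_sub ha hle'
    · rw [hx]; linarith [step_right (ci := c1) (ck := c3) ha h1]
    · rw [hy]; linarith [step_right (ci := c1) (ck := c3) ha h2]
    · rw [hz]; linarith [step_right (ci := c1) (ck := c3) ha h3]
    · rw [ht]; linarith [step_right (ci := c1) (ck := c3) ha h4]

theorem split5 {p q r s u : V4} {a b g : Int} (h : eqc a b g r s u = true)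
    {x y z t : ℝ} (H : InC p q r s x y z t) :
    InC p q r u x y z t ∨ InC p q u s x y z t := by
  obtain ⟨ha, hb, hg, h1, h2, h3, h4⟩ := eqc_real h
  obtain ⟨c0, c1, c2, c3, h0, h1', h2', h3', hx, hy, hz, ht⟩ := H
  rcases le_total (c3 * (a : ℝ)) (c2 * (b : ℝ)) with hle | hle
  · left
    refine ⟨c0, c1, (c2 - c3 * a / b), (c3 * g / b), ?_, ?_, ?_, ?_, ?_, ?_, ?_, ?_⟩
    · exact h0
    · exact h1'
    · exact coef_sub hb hle
    · exact coef_div h3' hg hb
    · rw [hx]; linarith [step_left (ci := c2) (ck := c3) hb h1]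
    · rw [hy]; linarith [step_left (ci := c2) (ck := c3) hb h2]
    · rw [hz]; linarith [step_left (ci := c2) (ck := c3) hb h3]
    · rw [ht]; linarith [step_left (ci := c2) (ck := c3) hb h4]
  · right
    have hle' : c2 * (b : ℝ) ≤ c3 * (a : ℝ) := hle
    refine ⟨c0, c1, (c2 * g / a), (c3 - c2 * b / a), ?_, ?_, ?_, ?_, ?_, ?_, ?_, ?_⟩
    · exact h0
    · exact h1'
    · exact coef_div h2' hg ha
    · exact coef_sub ha hle'
    · rw [hx]; linarith [step_right (ci := c2) (ck := c3) ha h1]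
    · rw [hy]; linarith [step_right (ci := c2) (ck := c3) ha h2]
    · rw [hz]; linarith [step_right (ci := c2) (ck := c3) ha h3]
    · rw [ht]; linarith [step_right (ci := c2) (ck := c3) ha h4]

theorem leaf_sound {fs : List V4} {p q r s : V4} (h : leafOk fs p q r s = true)
    {x y z t : ℝ} (H : InC p q r s x y z t) : fs ≠ [] ∧ ∀ f ∈ fs, 0 ≤ f.ev x y z t := by
  simp only [leafOk, Bool.and_eq_true] at h
  obtain ⟨hne, h⟩ := h
  refine ⟨by rintro rfl; simp at hne, ?_⟩
  intro f hf
  have h' := List.all_eq_true.mp h f hf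
  simp only [Bool.and_eq_true, decide_eq_true_eq] at h'
  obtain ⟨⟨⟨h1, h2⟩, h3⟩, h4⟩ := h'
  obtain ⟨c0, c1, c2, c3, h0, h1', h2', h3', hx, hy, hz, ht⟩ := H
  have e : f.ev x y z t = c0 * ((f.dot p : Int) : ℝ) + c1 * ((f.dot q : Int) : ℝ) +
      c2 * ((f.dot r : Int) : ℝ) + c3 * ((f.dot s : Int) : ℝ) := by
    simp only [V4.ev, V4.dot, hx, hy, hz, ht]
    push_cast
    ring
  rw [e]
  have g1 : (0 : ℝ) ≤ ((f.dot p : Int) : ℝ) := by exact_mod_cast h1
  have g2 : (0 : ℝ) ≤ ((f.dot q : Int) : ℝ) := by exact_mod_cast h2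
  have g3 : (0 : ℝ) ≤ ((f.dot r : Int) : ℝ) := by exact_mod_cast h3
  have g4 : (0 : ℝ) ≤ ((f.dot s : Int) : ℝ) := by exact_mod_cast h4
  positivity

/-- Soundness of the checker. -/
theorem chk_sound (forms : Nat → List V4) (t : T) :
    ∀ (p q r s : V4) (x y z w : ℝ), chk forms t p q r s = true → InC p q r s x y z w →
      ∃ j, forms j ≠ [] ∧ ∀ f ∈ forms j, 0 ≤ f.ev x y z w := by
  induction t with
  | leaf j =>
    intro p q r s x y z w h H
    exact ⟨j, leaf_sound h H⟩
  | node e a b g u l r ihl ihr =>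
    intro p q r' s x y z w h H
    match e, h with
    | 0, h =>
      simp only [chk, Bool.and_eq_true] at h
      obtain ⟨⟨h1, h2⟩, h3⟩ := h
      rcases split0 h1 H with H' | H'
      · exact ihl _ _ _ _ _ _ _ _ h2 H'
      · exact ihr _ _ _ _ _ _ _ _ h3 H'
    | 1, h =>
      simp only [chk, Bool.and_eq_true] at h
      obtain ⟨⟨h1, h2⟩, h3⟩ := h
      rcases split1 h1 H with H' | H'
      · exact ihl _ _ _ _ _ _ _ _ h2 H'
      · exact ihr _ _ _ _ _ _ _ _ h3 H'
    | 2, h =>
      simp only [chk, Bool.and_eq_true] at h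
      obtain ⟨⟨h1, h2⟩, h3⟩ := h
      rcases split2 h1 H with H' | H'
      · exact ihl _ _ _ _ _ _ _ _ h2 H'
      · exact ihr _ _ _ _ _ _ _ _ h3 H'
    | 3, h =>
      simp only [chk, Bool.and_eq_true] at h
      obtain ⟨⟨h1, h2⟩, h3⟩ := h
      rcases split3 h1 H with H' | H'
      · exact ihl _ _ _ _ _ _ _ _ h2 H'
      · exact ihr _ _ _ _ _ _ _ _ h3 H'
    | 4, h =>
      simp only [chk, Bool.and_eq_true] at h
      obtain ⟨⟨h1, h2⟩, h3⟩ := h
      rcases split4 h1 H with H' | H'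
      · exact ihl _ _ _ _ _ _ _ _ h2 H'
      · exact ihr _ _ _ _ _ _ _ _ h3 H'
    | 5, h =>
      simp only [chk, Bool.and_eq_true] at h
      obtain ⟨⟨h1, h2⟩, h3⟩ := h
      rcases split5 h1 H with H' | H'
      · exact ihl _ _ _ _ _ _ _ _ h2 H'
      · exact ihr _ _ _ _ _ _ _ _ h3 H'
    | (_ + 6), h => simp [chk] at h

end Vale.Agent.P243C
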